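import Vale.Agent.P230.Defs
import Vale.Agent.P230.MainLower

open Filter Vale.Agent.P230

theorem Vale.Agent.Results.P230.LowerBound.result :
    (∃ c : ℝ, 0 < c ∧ ∀ᶠ n : ℕ in atTop,
      ENNReal.ofReal (c * (n : ℝ) * Real.log (n : ℝ)) ≤ worstThetaT n ∧
      ENNReal.ofReal (c * (n : ℝ) * Real.log (n : ℝ)) ≤ worstThetaL n) ∧
    ¬ ∃ C : ℝ, ∀ n : ℕ, 1 ≤ n → ∀ K : Set (EuclideanSpace ℝ (Fin n)),
      IsConvexBody K → thetaT K ≤ ENNReal.ofReal (C * (n : ℝ)) :=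
  ⟨⟨1 / 10248192, by norm_num, worst_lower⟩, not_linear⟩
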