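import Vale.Agent.P230.Defs
import Vale.Agent.P230.MainLower
import Vale.Agent.P230.Rogers

open Filter Vale.Agent.P230

theorem Vale.Agent.Results.P230.Order.result :
    (∃ c C : ℝ, 0 < c ∧ 0 < C ∧ ∀ᶠ n : ℕ in atTop,
      ENNReal.ofReal (c * (n : ℝ) * Real.log (n : ℝ)) ≤ worstThetaT n ∧
      worstThetaT n ≤ ENNReal.ofReal (C * (n : ℝ) * Real.log (n : ℝ)) ∧
      ENNReal.ofReal (c * (n : ℝ) * Real.log (n : ℝ)) ≤ worstThetaL n) ∧
    ¬ ∃ C : ℝ, ∀ n : ℕ, 1 ≤ n → ∀ K : Set (EuclideanSpace ℝ (Fin n)),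
      IsConvexBody K → thetaT K ≤ ENNReal.ofReal (C * (n : ℝ)) := by
  refine ⟨⟨1 / 10248192, 12, by norm_num, by norm_num, ?_⟩, not_linear⟩
  filter_upwards [worst_lower, eventually_ge_atTop 2] with n h hn
  exact ⟨h.1, iSup₂_le fun K hK => rogers hn hK, h.2⟩
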